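import Vale.Agent.P331.H316.Rows

/-!
# The constants of the proof

`m j = 200 ^ j * m₀`, exponent `q = 6400`.
-/

set_option autoImplicit false

namespace Vale.Agent.P331.H679

open Finset Vale.Agent.P331.H489 Vale.Agent.P331.H316
open scoped Classical

/-- the levels -/
noncomputable def mm (m₀ : ℝ) (j : ℕ) : ℝ := 200 ^ j * m₀

theorem mm_succ (m₀ : ℝ) (j : ℕ) : mm m₀ (j + 1) = 200 * mm m₀ j := by
  unfold mm
  rw [pow_succ]
  ring

theorem mm_zero (m₀ : ℝ) : mm m₀ 0 = m₀ := by simp [mm]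

theorem mm_ge {m₀ : ℝ} (h : 0 ≤ m₀) (j : ℕ) : ((j : ℝ) + 1) * m₀ ≤ mm m₀ j := by
  unfold mm
  refine mul_le_mul_of_nonneg_right ?_ h
  induction j with
  | zero => simp
  | succ j ih =>
    rw [pow_succ]
    push_cast
    nlinarith [Nat.cast_nonneg (α := ℝ) j]

theorem mm_one_le {m₀ : ℝ} (h : 1 ≤ m₀) (j : ℕ) : 1 ≤ mm m₀ j := by
  have h1 := mm_ge (zero_le_one.trans h) j
  have h2 : (0 : ℝ) ≤ j := Nat.cast_nonneg j
  nlinarith

/-- the parameters -/
noncomputable def par (x t m₀ L : ℝ) : Par where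
  g := x / 20
  n := x
  t := t
  kap j := ⌊2 * mm m₀ (j + 1) / L⌋₊
  eps j := 1 / 2 * Real.exp (-(mm m₀ j) / 32)
  dl j := Real.exp (-(mm m₀ j) / 16)
  eta j := Real.exp (-601 * mm m₀ j)
  lam j := Real.exp (-50 * mm m₀ j)
  zet j := Real.exp (-100 * mm m₀ j)

section

variable {x t m₀ L : ℝ}

theorem kap_le (hm : 1 ≤ m₀) (hL : 40000000 ≤ L) (j : ℕ) :
    ((par x t m₀ L).kap j : ℝ) ≤ mm m₀ j / 100000 := by
  have h1 := mm_one_le hm j
  have hL0 : 0 < L := by linarith
  refine (Nat.floor_le ?_).trans ?_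
  · have := mm_one_le hm (j + 1)
    positivity
  · rw [mm_succ, div_le_iff₀ hL0]
    nlinarith

theorem lt_kap (hL : 0 < L) (j : ℕ) :
    2 * mm m₀ (j + 1) ≤ L * ((((par x t m₀ L).kap j + 1 : ℕ)) : ℝ) := by
  have h := (Nat.lt_floor_add_one (2 * mm m₀ (j + 1) / L)).le
  rw [div_le_iff₀ hL] at h
  show _ ≤ L * (((⌊2 * mm m₀ (j + 1) / L⌋₊ + 1 : ℕ)) : ℝ)
  push_cast
  linarith

theorem kap_zero (hm : 1 ≤ m₀) (hL : 400 * m₀ < L) : (par x t m₀ L).kap 0 = 0 := by
  have hL0 : 0 < L := by linarith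
  show ⌊2 * mm m₀ (0 + 1) / L⌋₊ = 0
  rw [Nat.floor_eq_zero, div_lt_one hL0, mm_succ, mm_zero]
  linarith

/-- the factor of the contexts -/
theorem cost (hm : 1 ≤ m₀) (hL : 40000000 ≤ L) (j : ℕ) :
    Real.exp (-801 * mm m₀ j) ≤
      ((1 / 2 : ℝ) ^ (par x t m₀ L).kap j * (par x t m₀ L).dl j) ^ (2 * 6400) := by
  have h1 := mm_one_le hm j
  have h2 : Real.exp (-1) ≤ 1 / 2 := by
    have h := Real.add_one_le_exp (1 : ℝ)
    rw [Real.exp_neg, one_div]
    exact inv_anti₀ (by norm_num) (by linarith)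
  have h3 : Real.exp (-(mm m₀ j / 100000)) ≤ (1 / 2 : ℝ) ^ (par x t m₀ L).kap j := by
    calc Real.exp (-(mm m₀ j / 100000))
        ≤ Real.exp (((par x t m₀ L).kap j : ℝ) * (-1)) :=
          Real.exp_le_exp.2 (by linarith [kap_le (x := x) (t := t) hm hL j])
      _ = Real.exp (-1) ^ (par x t m₀ L).kap j := Real.exp_nat_mul _ _
      _ ≤ _ := pow_le_pow_left₀ (Real.exp_pos _).le h2 _
  have h4 : Real.exp (-(mm m₀ j / 100000) + -(mm m₀ j) / 16) ≤
      (1 / 2 : ℝ) ^ (par x t m₀ L).kap j * (par x t m₀ L).dl j := by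
    rw [Real.exp_add]
    exact mul_le_mul_of_nonneg_right h3 (Real.exp_pos _).le
  calc Real.exp (-801 * mm m₀ j)
      ≤ Real.exp (((2 * 6400 : ℕ) : ℝ) * (-(mm m₀ j / 100000) + -(mm m₀ j) / 16)) := by
        refine Real.exp_le_exp.2 ?_
        push_cast
        linarith
    _ = Real.exp (-(mm m₀ j / 100000) + -(mm m₀ j) / 16) ^ (2 * 6400) := Real.exp_nat_mul _ _
    _ ≤ _ := pow_le_pow_left₀ (Real.exp_pos _).le h4 _

theorem pow16 (hm : 1 ≤ m₀) (hL : 40000000 ≤ L) (j : ℕ) :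
    (16 : ℝ) ^ (par x t m₀ L).kap (j + 1) ≤ Real.exp (mm m₀ j) := by
  have h1 := mm_one_le hm j
  have h2 : (16 : ℝ) ≤ Real.exp 15 := by
    have h := Real.add_one_le_exp (15 : ℝ)
    linarith
  have h3 := kap_le (x := x) (t := t) hm hL (j + 1)
  rw [mm_succ] at h3
  calc (16 : ℝ) ^ (par x t m₀ L).kap (j + 1) ≤ Real.exp 15 ^ (par x t m₀ L).kap (j + 1) :=
        pow_le_pow_left₀ (by norm_num) h2 _
    _ = Real.exp (((par x t m₀ L).kap (j + 1) : ℝ) * 15) := (Real.exp_nat_mul _ _).symm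
    _ ≤ _ := Real.exp_le_exp.2 (by linarith)

theorem eps_step (hm : 1 ≤ m₀) (hL : 40000000 ≤ L) (j : ℕ) :
    (par x t m₀ L).eps (j + 1) + (par x t m₀ L).kap j * (par x t m₀ L).dl j ≤
      (par x t m₀ L).eps j := by
  have h1 := mm_one_le hm j
  have hk := kap_le (x := x) (t := t) hm hL j
  set m := mm m₀ j with hmdef
  show 1 / 2 * Real.exp (-(mm m₀ (j + 1)) / 32) + (par x t m₀ L).kap j *
    Real.exp (-m / 16) ≤ 1 / 2 * Real.exp (-m / 32)
  rw [mm_succ, ← hmdef]
  set y := Real.exp (-m / 32) with hy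
  have hy0 : 0 < y := Real.exp_pos _
  have e1 : Real.exp (-(200 * m) / 32) ≤ 1 / 2 * y := by
    have h2 : Real.exp (-1) ≤ 1 / 2 := by
      have h := Real.add_one_le_exp (1 : ℝ)
      rw [Real.exp_neg, one_div]
      exact inv_anti₀ (by norm_num) (by linarith)
    calc Real.exp (-(200 * m) / 32) ≤ Real.exp (-1 + -m / 32) :=
          Real.exp_le_exp.2 (by linarith)
      _ = Real.exp (-1) * y := by rw [Real.exp_add]
      _ ≤ _ := mul_le_mul_of_nonneg_right h2 hy0.le
  have e2 : Real.exp (-m / 16) = y * y := by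
    rw [hy, ← Real.exp_add]
    congr 1
    ring
  have e3 : m / 32 * y ≤ 1 := by
    have h := Real.add_one_le_exp (m / 32)
    have h' : Real.exp (m / 32) * y = 1 := by
      rw [hy, ← Real.exp_add, ← Real.exp_zero]
      congr 1
      ring
    nlinarith
  have e4 : ((par x t m₀ L).kap j : ℝ) * Real.exp (-m / 16) ≤ 1 / 4 * y := by
    rw [e2]
    calc ((par x t m₀ L).kap j : ℝ) * (y * y) ≤ m / 100000 * (y * y) :=
          mul_le_mul_of_nonneg_right hk (mul_pos hy0 hy0).le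
      _ = (m / 32 * y) * (32 / 100000) * y := by ring
      _ ≤ 1 * (32 / 100000) * y := by
          refine mul_le_mul_of_nonneg_right ?_ hy0.le
          exact mul_le_mul_of_nonneg_right e3 (by norm_num)
      _ ≤ 1 / 4 * y := by nlinarith
  linarith

end

/-! ### expectations -/

theorem w4_nonneg {p x s : ℝ} (hp : 0 ≤ p) (hx : 0 ≤ x) (hs : 0 ≤ s) (h : p + x + s ≤ 1)
    (l : L4) : 0 ≤ w4 p x s l := by
  cases l with
  | v => exact hp
  | s => exact hx
  | i => exact hs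
  | o => show 0 ≤ 1 - p - x - s; linarith

theorem PR_mono {E : Type} [Fintype E] {p x s : ℝ} (hp : 0 ≤ p) (hx : 0 ≤ x) (hs : 0 ≤ s)
    (h : p + x + s ≤ 1) {F G : Finset E → Finset E → Finset E → ℝ}
    (hFG : ∀ A B C, F A B C ≤ G A B C) : PR p x s F ≤ PR p x s G :=
  EX_mono (fun _ l => w4_nonneg hp hx hs h l) fun _ => hFG _ _ _

theorem ind_mono {P Q : Prop} (h : P → Q) : ind P ≤ ind Q := by
  unfold ind
  by_cases hP : P
  · rw [if_pos hP, if_pos (h hP)]
  · rw [if_neg hP]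
    split_ifs <;> norm_num

theorem ind_nonneg (P : Prop) : 0 ≤ ind P := by
  unfold ind
  split_ifs <;> norm_num

theorem Jn_nonneg {E : Type} [Fintype E] (D : Finset E → Prop) {Θ : ℝ} (h0 : 0 ≤ Θ)
    (h1 : Θ ≤ 1) (b : E) : 0 ≤ Jn D Θ b := by
  refine EX_nonneg (fun _ l => ?_) fun _ => ind_nonneg _
  unfold tw
  split_ifs
  · exact h0
  · linarith

theorem sig_of_core {E : Type} [Fintype E] {D : Finset E → Prop} {P : Par} {R I : Finset E}
    {j : ℕ} {X : Finset E} {b : E} (hb : b ∈ core D P R I j X) :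
    ∃ Q ⊆ X, sig D P R I j Q b := by
  unfold core at hb
  rw [Finset.mem_sup] at hb
  obtain ⟨Q, hQ, hbQ⟩ := hb
  rw [mem_filter, mem_powerset] at hQ
  exact ⟨Q, hQ.1, hQ.2 b hbQ⟩

/-! ### the rates -/

section

variable {x t m₀ L : ℝ}

theorem xr_eq : xr (1 / 4) (par x t m₀ L) = 1 / 4 * (x / 20 + (1 - x / 20) * x) := rfl

theorem xr_pos (hx : 0 < x) (hx1 : x ≤ 1 / 100) : 0 < xr (1 / 4) (par x t m₀ L) := by
  rw [xr_eq]
  have h : 0 ≤ (1 - x / 20) * x := mul_nonneg (by linarith) hx.le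
  linarith

theorem xr_le (hx : 0 < x) (hx1 : x ≤ 1 / 100) : xr (1 / 4) (par x t m₀ L) ≤ x := by
  rw [xr_eq]
  nlinarith

/-- the rate does not depend on `m₀` and `L` -/
theorem Th_eq : Th (1 / 4) (1 / 4) (par x t m₀ L) =
    1 / 4 * (x / 20 + (1 - x / 20) * x) + 1 / 4 * t := rfl

theorem Th_pos (hx : 0 < x) (hx1 : x ≤ 1 / 100) (ht : 0 < t) :
    0 < Th (1 / 4) (1 / 4) (par x t m₀ L) := by
  have h := xr_pos (t := t) (m₀ := m₀) (L := L) hx hx1
  rw [xr_eq] at h
  rw [Th_eq]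
  linarith

theorem Th_lt (hx : 0 < x) (hx1 : x ≤ 1 / 100) (ht : t ≤ 1 / 2) :
    Th (1 / 4) (1 / 4) (par x t m₀ L) < 1 := by
  have h := xr_le (t := t) (m₀ := m₀) (L := L) hx hx1
  rw [xr_eq] at h
  rw [Th_eq]
  linarith

/-- the small probability of the test set -/
noncomputable def pp (x L : ℝ) : ℝ := x / 80 * Real.exp (-L)

theorem pp_pos (hx : 0 < x) : 0 < pp x L := mul_pos (by linarith) (Real.exp_pos _)

theorem pp_le (hx : 0 < x) (hL : 0 ≤ L) : pp x L ≤ x / 80 := by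
  have h : Real.exp (-L) ≤ 1 := Real.exp_le_one_iff.2 (by linarith)
  have h2 := Real.exp_pos (-L)
  unfold pp
  nlinarith

theorem pp_mul {C : ℝ} (hx : 0 < x) (hx1 : x ≤ 1 / 100) (hC : 0 < C) (hL : 0 < L) (hLC : C ≤ L) :
    C * pp x L ≤ 1 / 2 := by
  have h1 : L * Real.exp (-L) ≤ 1 := by
    have h := Real.add_one_le_exp L
    have h' : Real.exp L * Real.exp (-L) = 1 := by
      rw [← Real.exp_add, add_neg_cancel, Real.exp_zero]
    have h2 := Real.exp_pos (-L)
    nlinarith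
  have h2 := Real.exp_pos (-L)
  have h3 : C * Real.exp (-L) ≤ 1 := by nlinarith
  unfold pp
  nlinarith

theorem pp_ratio (hx : 0 < x) (hL : 0 < L) (j : ℕ) :
    (pp x L / (1 / 4 * (par x t m₀ L).g)) ^ ((par x t m₀ L).kap j + 1) ≤
      Real.exp (-2 * mm m₀ (j + 1)) := by
  have h1 : pp x L / (1 / 4 * (par x t m₀ L).g) = Real.exp (-L) := by
    show x / 80 * Real.exp (-L) / (1 / 4 * (x / 20)) = _
    field_simp
    ring
  rw [h1, ← Real.exp_nat_mul]
  refine Real.exp_le_exp.2 ?_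
  have h := lt_kap (x := x) (t := t) (m₀ := m₀) hL j
  linarith

end

/-! ### one level -/

section

variable {x t m₀ L C : ℝ}

/-- the failure of a step has small probability -/
theorem bad_le (hcore : RowCORE) (hstep : RowSTEP) (hx : 0 < x) (hx1 : x ≤ 1 / 100) (ht : 0 < t)
    (ht1 : t ≤ 1 / 2) (hm : 1 ≤ m₀) (hL : 40000000 ≤ L)
    (hK : Real.log (6 + 2 * (1 / (Th (1 / 4) (1 / 4) (par x t m₀ L) *
      (1 - Th (1 / 4) (1 / 4) (par x t m₀ L))))) ≤ m₀)
    (hone : OneC 6400 (pp x L) (xr (1 / 4) (par x t m₀ L)) (1 / 4) t (1 / 2))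
    (E : Type) [Fintype E] (D : Finset E → Prop) (hD : Up D) (j : ℕ) :
    PR (pp x L) (1 / 4) (1 / 4) (fun V R I => ind (∃ X ⊆ V, Bad D (par x t m₀ L) R I j X)) ≤
      Real.exp (-(mm m₀ (j + 1))) := by
  have hL0 : 0 < L := by linarith
  have hm1 := mm_one_le hm j
  have hm0 : m₀ ≤ mm m₀ j := by
    have h := mm_ge (zero_le_one.trans hm) j
    have h2 : (0 : ℝ) ≤ j := Nat.cast_nonneg j
    nlinarith
  have hp0 := pp_pos (L := L) hx
  have hp1 := pp_le hx hL0.le
  set P := par x t m₀ L with hP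
  set m := mm m₀ j with hmdef
  have hTh0 : 0 < Th (1 / 4) (1 / 4) P := Th_pos hx hx1 ht
  have hTh1 : Th (1 / 4) (1 / 4) P < 1 := Th_lt hx hx1 ht1
  set K := 1 / (Th (1 / 4) (1 / 4) P * (1 - Th (1 / 4) (1 / 4) P)) with hKdef
  have hK0 : 0 < K := by
    have : 0 < 1 - Th (1 / 4) (1 / 4) P := by linarith
    positivity
  -- the core estimate
  have hB : ∀ (K' : Finset E → Finset E → Finset E → Finset E)
      (st : Finset E → Finset E → Finset E → E → Finset E),
      (∀ V R I, K' V R I ⊆ V) →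
      (∀ V R I, ∀ b ∈ K' V R I \ core D P R I j (K' V R I), st V R I b ⊆ K' V R I ∧
        ¬ sig D P R I j (st V R I b) b) →
      PR (pp x L) (1 / 4) (1 / 4) (fun V R I => thin P.g R fun G => thin P.n (R \ G) fun N =>
        ind (∃ b ∈ K' V R I \ core D P R I j (K' V R I),
          rel D P.t (P.dl j) (P.kap j) I (st V R I b) b (G ∪ N))) ≤
      K * (2 * Real.exp (-600 * m)) := by
    intro K' st h1 h2
    have h3 := hcore 6400 (pp x L) (1 / 4) (1 / 4) (1 / 2) P (by norm_num) hp0.le (by norm_num)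
      (by norm_num) (by linarith) (by show 0 ≤ x / 20; linarith) (by show x / 20 ≤ 1; linarith)
      (by show 0 ≤ x; linarith) (by show x ≤ 1; linarith) (by show 0 ≤ t; linarith)
      (by show t ≤ 1; linarith) (by norm_num) (by norm_num) hTh0 hTh1 hone E D hD j
      (Real.exp (-m / 4)) (Real.exp_pos _) (Real.exp_pos _) (Real.exp_pos _).le K' st h1 h2
    refine h3.trans (mul_le_mul_of_nonneg_left ?_ hK0.le)
    have e1 : P.eta j / Real.exp (-m / 4) ^ 2 ≤ Real.exp (-600 * m) := by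
      show Real.exp (-601 * m) / Real.exp (-m / 4) ^ 2 ≤ _
      rw [← Real.exp_nat_mul, ← Real.exp_sub]
      refine Real.exp_le_exp.2 ?_
      push_cast
      linarith
    have e2 : Real.exp (-m / 4) ^ (6400 - 2) / ((1 / 2 : ℝ) ^ P.kap j * P.dl j) ^ (2 * 6400) ≤
        Real.exp (-600 * m) := by
      rw [div_le_iff₀ (lt_of_lt_of_le (Real.exp_pos _) (cost hm hL j))]
      calc Real.exp (-m / 4) ^ (6400 - 2) = Real.exp (((6400 - 2 : ℕ) : ℝ) * (-m / 4)) :=
            (Real.exp_nat_mul _ _).symm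
        _ ≤ Real.exp (-600 * m + -801 * m) := by
            refine Real.exp_le_exp.2 ?_
            norm_num
            linarith
        _ = Real.exp (-600 * m) * Real.exp (-801 * m) := Real.exp_add _ _
        _ ≤ _ := mul_le_mul_of_nonneg_left (cost hm hL j) (Real.exp_pos _).le
    linarith
  have hs := hstep (pp x L) (1 / 4) (1 / 4) (K * (2 * Real.exp (-600 * m)))
    (Real.exp (-625 * m)) (Real.exp (-5000 * m)) (Real.exp (-2500 * m)) P hp0 (by norm_num)
    (by norm_num) (by linarith) (by show 0 < x / 20; linarith) (by show x / 20 ≤ 1 / 4; linarith)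
    hx (by show x ≤ 1 / 4; linarith)
    (by
      show x / 20 / (1 - 2 * (x / 20)) ≤ x * (1 - x / 20) / (1 - 2 * (x / 20)) / 10
      rw [div_right_comm (x * (1 - x / 20))]
      refine div_le_div_of_nonneg_right ?_ (by linarith)
      nlinarith)
    (by show 0 ≤ t; linarith) (by show t ≤ 1; linarith) (Real.exp_pos _) (Real.exp_pos _)
    (Real.exp_pos _) (by positivity)
    (by show pp x L ≤ 1 / 4 * (x / 20); linarith) E D hD j (Real.exp_pos _).le (Real.exp_pos _)
    (Real.exp_pos _).le (Real.exp_pos _) (Real.exp_pos _).le (eps_step hm hL j) hB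
  -- the numbers
  have t1 : (P.zet (j + 1) + P.lam (j + 1) / Real.exp (-5000 * m)) / Real.exp (-2500 * m) ≤
      2 * Real.exp (-400 * m) := by
    show (Real.exp (-100 * mm m₀ (j + 1)) + Real.exp (-50 * mm m₀ (j + 1)) /
      Real.exp (-5000 * m)) / Real.exp (-2500 * m) ≤ _
    rw [mm_succ, ← hmdef, ← Real.exp_sub, add_div, ← Real.exp_sub, ← Real.exp_sub]
    have a1 : Real.exp (-100 * (200 * m) - -2500 * m) ≤ Real.exp (-400 * m) :=
      Real.exp_le_exp.2 (by linarith)
    have a2 : Real.exp (-50 * (200 * m) - -5000 * m - -2500 * m) ≤ Real.exp (-400 * m) :=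
      Real.exp_le_exp.2 (by linarith)
    linarith
  have t2 : (pp x L / (1 / 4 * P.g)) ^ (P.kap j + 1) ≤ Real.exp (-400 * m) := by
    refine (pp_ratio hx hL0 j).trans (Real.exp_le_exp.2 ?_)
    rw [mm_succ, ← hmdef]
    linarith
  have t3 : (Real.exp (-2500 * m) + Real.exp (-625 * m) + 16 ^ P.kap (j + 1) *
      Real.exp (-5000 * m) / Real.exp (-625 * m) ^ 4 + K * (2 * Real.exp (-600 * m))) /
      P.lam j ≤ (3 + 2 * K) * Real.exp (-400 * m) := by
    have b3 : (16 : ℝ) ^ P.kap (j + 1) * Real.exp (-5000 * m) / Real.exp (-625 * m) ^ 4 ≤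
        Real.exp (-600 * m) := by
      have c1 := pow16 (x := x) (t := t) hm hL j
      calc (16 : ℝ) ^ P.kap (j + 1) * Real.exp (-5000 * m) / Real.exp (-625 * m) ^ 4
          ≤ Real.exp m * Real.exp (-5000 * m) / Real.exp (-625 * m) ^ 4 :=
            div_le_div_of_nonneg_right (mul_le_mul_of_nonneg_right c1 (Real.exp_pos _).le)
              (by positivity)
        _ = Real.exp (m + -5000 * m - ((4 : ℕ) : ℝ) * (-625 * m)) := by
            rw [Real.exp_sub, Real.exp_add, Real.exp_nat_mul]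
        _ ≤ _ := Real.exp_le_exp.2 (by push_cast; linarith)
    have b1 : Real.exp (-2500 * m) ≤ Real.exp (-600 * m) := Real.exp_le_exp.2 (by linarith)
    have b2 : Real.exp (-625 * m) ≤ Real.exp (-600 * m) := Real.exp_le_exp.2 (by linarith)
    have b4 : Real.exp (-600 * m) / P.lam j ≤ Real.exp (-400 * m) := by
      show Real.exp (-600 * m) / Real.exp (-50 * m) ≤ _
      rw [← Real.exp_sub]
      exact Real.exp_le_exp.2 (by linarith)
    have b5 : 0 < P.lam j := Real.exp_pos _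
    calc _ ≤ ((3 + 2 * K) * Real.exp (-600 * m)) / P.lam j :=
          div_le_div_of_nonneg_right (by linarith) b5.le
      _ = (3 + 2 * K) * (Real.exp (-600 * m) / P.lam j) := mul_div_assoc _ _ _
      _ ≤ _ := mul_le_mul_of_nonneg_left b4 (by linarith)
  have t4 : P.zet j * PR (E := E) (pp x L) (1 / 4) (1 / 4)
      (fun V R I => ind (∃ X ⊆ V, Bad D P R I j X)) ≤ (6 + 2 * K) * Real.exp (-400 * m) := by
    linarith
  have t5 : (6 + 2 * K) ≤ Real.exp (100 * m) := by
    calc (6 + 2 * K) = Real.exp (Real.log (6 + 2 * K)) := (Real.exp_log (by linarith)).symm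
      _ ≤ _ := Real.exp_le_exp.2 (by linarith)
  have t6 : (6 + 2 * K) * Real.exp (-400 * m) ≤ Real.exp (-300 * m) := by
    calc (6 + 2 * K) * Real.exp (-400 * m) ≤ Real.exp (100 * m) * Real.exp (-400 * m) :=
          mul_le_mul_of_nonneg_right t5 (Real.exp_pos _).le
      _ = Real.exp (-300 * m) := by
          rw [← Real.exp_add]
          congr 1
          ring
  have t7 : P.zet j * PR (E := E) (pp x L) (1 / 4) (1 / 4)
      (fun V R I => ind (∃ X ⊆ V, Bad D P R I j X)) ≤ P.zet j * Real.exp (-(mm m₀ (j + 1))) := by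
    refine (t4.trans t6).trans (le_of_eq ?_)
    show _ = Real.exp (-100 * m) * Real.exp (-(mm m₀ (j + 1)))
    rw [mm_succ, ← hmdef, ← Real.exp_add]
    congr 1
    ring
  exact le_of_mul_le_mul_left t7 (Real.exp_pos _)

/-- the blame at one level -/
theorem ev_le (hcore : RowCORE) (hstep : RowSTEP) (hch : RowCH) (hx : 0 < x) (hx1 : x ≤ 1 / 100)
    (ht : 0 < t) (ht1 : t ≤ 1 / 2) (hm : 1 ≤ m₀) (hL : 40000000 ≤ L)
    (hK : Real.log (6 + 2 * (1 / (Th (1 / 4) (1 / 4) (par x t m₀ L) *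
      (1 - Th (1 / 4) (1 / 4) (par x t m₀ L))))) ≤ m₀)
    (hone : OneC 6400 (pp x L) (xr (1 / 4) (par x t m₀ L)) (1 / 4) t (1 / 2))
    (E : Type) [Fintype E] (D : Finset E → Prop) (hD : Up D) (b : E) (j : ℕ) :
    PR (pp x L) (1 / 4) (1 / 4) (fun V R I => ind (Ev D (par x t m₀ L) R I j b V)) ≤
      Real.exp (-(mm m₀ (j + 1)) / 2) * Jn D (Th (1 / 4) (1 / 4) (par x t m₀ L)) b := by
  have hL0 : 0 < L := by linarith
  have hM1 := mm_one_le hm (j + 1)
  have hp0 := pp_pos (L := L) hx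
  have hp1 := pp_le hx hL0.le
  have hbad := bad_le hcore hstep hx hx1 ht ht1 hm hL hK hone E D hD j
  set P := par x t m₀ L with hP
  set M := mm m₀ (j + 1) with hMdef
  have hTh0 : 0 < Th (1 / 4) (1 / 4) P := Th_pos hx hx1 ht
  have hTh1 : Th (1 / 4) (1 / 4) P < 1 := Th_lt hx hx1 ht1
  have hJ : 0 ≤ Jn D (Th (1 / 4) (1 / 4) P) b := Jn_nonneg D hTh0.le hTh1.le b
  set J := Jn D (Th (1 / 4) (1 / 4) P) b with hJdef
  rcases le_or_gt (Real.exp (-M / 2)) J with hJ1 | hJ1
  · -- large influence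
    calc PR (pp x L) (1 / 4) (1 / 4) (fun V R I => ind (Ev D P R I j b V))
        ≤ PR (pp x L) (1 / 4) (1 / 4) (fun V R I => ind (∃ X ⊆ V, Bad D P R I j X)) :=
          PR_mono hp0.le (by norm_num) (by norm_num) (by linarith) fun V R I =>
            ind_mono fun h => by
              obtain ⟨X, hX, -, -, hbd⟩ := h
              exact ⟨X, hX, hbd⟩
      _ ≤ Real.exp (-M) := hbad
      _ = Real.exp (-M / 2) * Real.exp (-M / 2) := by
          rw [← Real.exp_add]
          congr 1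
          ring
      _ ≤ Real.exp (-M / 2) * J := mul_le_mul_of_nonneg_left hJ1 (Real.exp_pos _).le
  · -- small influence
    have h1 := hch 6400 (pp x L) (1 / 4) (1 / 4) (1 / 2) P (by norm_num) hp0.le (by norm_num)
      (by norm_num) (by linarith) (by show 0 ≤ x / 20; linarith) (by show x / 20 ≤ 1; linarith)
      (by show 0 ≤ x; linarith) (by show x ≤ 1; linarith) (by show 0 ≤ t; linarith)
      (by show t ≤ 1; linarith) (by norm_num) (by norm_num) hone E D b (j + 1)
      (Real.exp_pos _).le (Real.exp_pos _).le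
    rw [← hJdef] at h1
    have h2 : PR (pp x L) (1 / 4) (1 / 4) (fun V R I => ind (Ev D P R I j b V)) ≤
        PR (pp x L) (1 / 4) (1 / 4) (fun V R I => ind (∃ X ⊆ V, sig D P R I (j + 1) X b)) :=
      PR_mono hp0.le (by norm_num) (by norm_num) (by linarith) fun V R I =>
        ind_mono fun h => by
          obtain ⟨X, hX, hb, hc, -⟩ := h
          rw [← hc] at hb
          obtain ⟨Q, hQ, hs⟩ := sig_of_core hb
          exact ⟨Q, hQ.trans hX, hs⟩
    set A := PR (pp x L) (1 / 4) (1 / 4) (fun V R I => ind (∃ X ⊆ V, sig D P R I (j + 1) X b))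
      with hA
    have hA0 : 0 ≤ A := by
      refine EX_nonneg (fun _ l => w4_nonneg hp0.le (by norm_num) (by norm_num) (by linarith) l)
        fun _ => ind_nonneg _
    have h3 : Real.exp (-1402 * M) * A ≤ J ^ 6400 := by
      refine le_trans (mul_le_mul_of_nonneg_right ?_ hA0) h1
      have h4 := cost (x := x) (t := t) hm hL (j + 1)
      rw [← hMdef] at h4
      calc Real.exp (-1402 * M) = Real.exp (-601 * M) * Real.exp (-801 * M) := by
            rw [← Real.exp_add]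
            congr 1
            ring
        _ ≤ _ := mul_le_mul_of_nonneg_left h4 (Real.exp_pos _).le
    have h5 : J ^ 6400 ≤ Real.exp (-1402 * M) * (Real.exp (-M / 2) * J) := by
      calc J ^ 6400 = J ^ 6399 * J := pow_succ J 6399
        _ ≤ Real.exp (-M / 2) ^ 6399 * J :=
            mul_le_mul_of_nonneg_right (pow_le_pow_left₀ hJ hJ1.le _) hJ
        _ = Real.exp (((6399 : ℕ) : ℝ) * (-M / 2)) * J := by rw [Real.exp_nat_mul]
        _ ≤ Real.exp (-1402 * M + -M / 2) * J := by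
            refine mul_le_mul_of_nonneg_right (Real.exp_le_exp.2 ?_) hJ
            norm_num
            linarith
        _ = _ := by rw [Real.exp_add, mul_assoc]
    exact h2.trans (le_of_mul_le_mul_left (h3.trans h5) (Real.exp_pos _))

end

/-! ### the row -/

theorem rowSUM : RowSUM := by
  intro hONE hcore hstep hch
  obtain ⟨t, ht, ht1, x, hx, hx1, C, hC, hone⟩ := hONE 6400 (by norm_num)
  -- the rate
  set Θ : ℝ := 1 / 4 * (x / 20 + (1 - x / 20) * x) + 1 / 4 * t with hΘ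
  have hΘ0 : 0 < Θ := by
    have h := Th_pos (m₀ := 0) (L := 0) hx hx1 ht
    rwa [Th_eq] at h
  have hΘ1 : Θ < 1 := by
    have h := Th_lt (m₀ := 0) (L := 0) hx hx1 ht1
    rwa [Th_eq] at h
  set K := 1 / (Θ * (1 - Θ)) with hKdef
  have hK0 : 0 < K := by
    have : 0 < 1 - Θ := by linarith
    positivity
  have hlog1 : 0 ≤ Real.log (4 / Θ) := by
    refine Real.log_nonneg ?_
    rw [le_div_iff₀ hΘ0]
    linarith
  have hlog2 : 0 ≤ Real.log (6 + 2 * K) := Real.log_nonneg (by linarith)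
  set m₀ : ℝ := 1 + Real.log (4 / Θ) + Real.log (6 + 2 * K) with hm₀
  have hm : 1 ≤ m₀ := by linarith
  set L : ℝ := 40000000 + 400 * m₀ + C with hLdef
  have hL : 40000000 ≤ L := by linarith
  have hL0 : 0 < L := by linarith
  set P := par x t m₀ L with hP
  have hTh : Th (1 / 4) (1 / 4) P = Θ := rfl
  have hp0 := pp_pos (L := L) hx
  have hp1 := pp_le hx hL0.le
  have hKle : Real.log (6 + 2 * (1 / (Th (1 / 4) (1 / 4) P *
      (1 - Th (1 / 4) (1 / 4) P)))) ≤ m₀ := by
    rw [hTh, ← hKdef]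
    linarith
  have hoc : OneC 6400 (pp x L) (xr (1 / 4) P) (1 / 4) t (1 / 2) := by
    refine hone _ _ _ (xr_pos hx hx1).le (xr_le hx hx1) hp0.le (by linarith) (by norm_num)
      (by norm_num) ?_
    have h := pp_mul hx hx1 hC hL0 (by linarith : C ≤ L)
    linarith
  have heps : ∀ j, P.eps j < 1 := fun j => by
    show 1 / 2 * Real.exp (-(mm m₀ j) / 32) < 1
    have h : Real.exp (-(mm m₀ j) / 32) ≤ 1 := Real.exp_le_one_iff.2 (by
      have := mm_one_le hm j
      linarith)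
    linarith
  have hlam : ∀ j, P.lam j < 1 := fun j => by
    show Real.exp (-50 * mm m₀ j) < 1
    rw [← Real.exp_zero]
    refine Real.exp_lt_exp.2 ?_
    have := mm_one_le hm j
    linarith
  have hzet : ∀ j, P.zet j < 1 := fun j => by
    show Real.exp (-100 * mm m₀ j) < 1
    rw [← Real.exp_zero]
    refine Real.exp_lt_exp.2 ?_
    have := mm_one_le hm j
    linarith
  refine ⟨pp x L, 1 / 4, 1 / 4, P, hp0, by norm_num, by norm_num, by linarith,
    by show 0 < x / 20; linarith, by show x / 20 < 1; linarith, hx, by show x < 1; linarith,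
    ht, by show t < 1; linarith, hTh ▸ hΘ0, hTh ▸ hΘ1, kap_zero hm (by linarith), heps 0,
    hlam 0, hzet 0, fun j => ⟨mul_nonneg (by norm_num) (Real.exp_pos _).le, heps j,
      (Real.exp_pos _).le, hlam j, (Real.exp_pos _).le, hzet j⟩, ?_, ?_, ?_⟩
  · -- the sizes tend to infinity
    intro N
    obtain ⟨n₀, hn₀⟩ := exists_nat_ge (N * L)
    refine ⟨n₀, fun n hn => ?_⟩
    refine Nat.le_floor ?_
    rw [le_div_iff₀ hL0]
    have h1 := mm_ge (zero_le_one.trans hm) (n + 1)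
    have h2 : (n₀ : ℝ) ≤ n := by exact_mod_cast hn
    push_cast at h1
    have h3 : (0 : ℝ) ≤ n := Nat.cast_nonneg n
    nlinarith
  · -- the thresholds tend to zero
    intro c hc
    obtain ⟨n₀, hn₀⟩ := exists_nat_ge (16 * Real.log (1 / c))
    refine ⟨n₀, fun n hn => ?_⟩
    have h1 := mm_ge (zero_le_one.trans hm) n
    have h2 : (n₀ : ℝ) ≤ n := by exact_mod_cast hn
    have h3 : (0 : ℝ) ≤ n := Nat.cast_nonneg n
    have h4 : 16 * Real.log (1 / c) ≤ mm m₀ n := by nlinarith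
    have h4' : 0 ≤ mm m₀ n := zero_le_one.trans (mm_one_le hm n)
    have h5 : Real.log (1 / c) = - Real.log c := by rw [one_div, Real.log_inv]
    have h6 : Real.exp (-(mm m₀ n) / 16) ≤ c := by
      calc Real.exp (-(mm m₀ n) / 16) ≤ Real.exp (Real.log c) :=
            Real.exp_le_exp.2 (by linarith)
        _ = c := Real.exp_log hc
    refine ⟨h6, le_trans ?_ h6⟩
    show Real.exp (-601 * mm m₀ n) ≤ _
    exact Real.exp_le_exp.2 (by linarith)
  · -- the sum
    intro E _ D hD b N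
    have hJ : 0 ≤ Jn D (Th (1 / 4) (1 / 4) P) b := Jn_nonneg D (hTh ▸ hΘ0.le) (hTh ▸ hΘ1.le) b
    have hj : ∀ j : ℕ, Real.exp (-(mm m₀ (j + 1)) / 2) ≤ Θ / 4 * (1 / 2) ^ j := by
      intro j
      have h1 := mm_ge (zero_le_one.trans hm) j
      have h2 : (1 / 2 : ℝ) ^ j = Real.exp (j * -Real.log 2) := by
        rw [Real.exp_nat_mul, Real.exp_neg, Real.exp_log (by norm_num), one_div]
      have h3 : Θ / 4 = Real.exp (- Real.log (4 / Θ)) := by
        rw [Real.exp_neg, Real.exp_log (by positivity), inv_div]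
      rw [h2, h3, ← Real.exp_add]
      refine Real.exp_le_exp.2 ?_
      rw [mm_succ]
      have h4 : Real.log 2 ≤ 1 := by
        have := Real.log_le_sub_one_of_pos (show (0 : ℝ) < 2 by norm_num)
        linarith
      have h5 : (0 : ℝ) ≤ j := Nat.cast_nonneg j
      have h6 : 0 ≤ Real.log 2 := Real.log_nonneg (by norm_num)
      nlinarith
    calc ∑ j ∈ range N, PR (pp x L) (1 / 4) (1 / 4) (fun V R I => ind (Ev D P R I j b V))
        ≤ ∑ j ∈ range N, Θ / 4 * (1 / 2) ^ j * Jn D (Th (1 / 4) (1 / 4) P) b :=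
          sum_le_sum fun j _ => (ev_le hcore hstep hch hx hx1 ht ht1 hm hL hKle hoc E D hD b
            j).trans (mul_le_mul_of_nonneg_right (hj j) hJ)
      _ = Θ / 4 * (∑ j ∈ range N, (1 / 2 : ℝ) ^ j) * Jn D (Th (1 / 4) (1 / 4) P) b := by
          rw [mul_sum, sum_mul]
      _ ≤ Θ / 4 * 2 * Jn D (Th (1 / 4) (1 / 4) P) b := by
          refine mul_le_mul_of_nonneg_right ?_ hJ
          refine mul_le_mul_of_nonneg_left ?_ (by linarith)
          exact sum_geometric_two_le N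
      _ = Th (1 / 4) (1 / 4) P / 2 * Jn D (Th (1 / 4) (1 / 4) P) b := by
          rw [hTh]
          ring

end Vale.Agent.P331.H679
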